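import Vale.Agent.P032.S5.H205.Contact
import Vale.Agent.P032.S5.H678.Comp
import Vale.Agent.P032.S5.H827.Edge
import Vale.Agent.P032.Carr.LamU

/-!
# P032, carriers: the distance-two rule when harmless points may be at distance one

`comp_U` : 678's `comp_T` with 223's `Up` (no `D`-star, no half pinched pair) and the minimal frame
instead of the absence of unit pairs in `Z`.
-/

open Set Filter Topology Metric

noncomputable section

namespace Vale.Agent.P032.Carr

open Vale.Agent.P032.S5 Vale.Agent.P032.Six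

variable {U : Fin 6 → Set ℂ} {T : ℂ → Set (Fin 6)} {Z : Set ℂ} {f : ℂ → Set (Fin 6)}
  {c : ℂ} {R : ℝ}

/-- 223's frame gives `Harm` -/
theorem Hml.harmU {W : Set ℂ} (hl : Hml T f W) (h : Irr U T) {z : ℂ} (hz : z ∈ W)
    (h4 : 4 ≤ (T z).ncard) : Harm T z (f z) := by
  obtain ⟨y, hy, hyf⟩ := hl.h2 z hz h4
  refine ⟨hl.four z hz h4, hl.two z hz h4, hl.fsub z hz h4, hl.h1 z hz h4, ?_⟩
  obtain ⟨q, -, hq, hq2, hq3, hq4, -⟩ := h.arc_of_sub hy (hyf.le.trans (hl.fsub z hz h4)) univ_mem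
  have hqf : T q = f z := by
    rw [hyf] at hq3
    exact Set.eq_of_subset_of_ncard_le hq3 (by rw [hl.two z hz h4]; exact hq4) (Set.toFinite _)
  exact ⟨q, hq, hq2.mono fun q' hq' => hq'.trans hqf⟩

/-- **Distance-two rule** for faces, unit pairs in `Z` allowed -/
theorem comp_U (h : Irr U T) (hmin : MinF U T) (hZ : Zs T Z c R) (hl : Hml T f (ball c (R + 1)))
    (hup : Up T Z f) {u u' : ℂ} (hu : dist u c ≤ R - 1) (hu' : dist u' c ≤ R - 1)
    {s : Set (Fin 6)} (F : FaceT T u s) (F' : FaceT T u' sᶜ) : 2 ≤ dist u u' := by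
  by_contra hlt
  push Not at hlt
  have hne : u ≠ u' := by
    rintro rfl
    have h1 : (univ : Set (Fin 6)) ⊆ T u := fun i _ => by
      by_cases hi : i ∈ s
      · exact F.2.1 hi
      · exact F'.2.1 hi
    have h2 := Set.ncard_le_ncard h1 (Set.toFinite _)
    have h3 := hZ.four_le hl (u := u) (by linarith)
    rw [Set.ncard_univ, Nat.card_eq_fintype_card, Fintype.card_fin] at h2
    omega
  obtain ⟨q, hq, hq', hne2⟩ := l2_exists_inter hlt hne
  have h4 := F.fc.four_le' h F'.fc hne hq hq' hne2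
  have hqc : dist q c ≤ R := by
    have := dist_triangle q u c
    linarith
  have hqZ : q ∈ Z := hZ.mem q (mem_closedBall.2 hqc) h4
  have hqA : Harm T q (f q) := hl.harmU h (hZ.sub hqZ) h4
  have hqn : ∀ᶠ y in 𝓝 q, 4 ≤ (T y).ncard → ∃ A', Harm T y A' := by
    filter_upwards [hZ.opn q hqZ] with y hy hy4
    exact ⟨f y, hl.harmU h (hZ.sub (hy hy4)) hy4⟩
  have key : ∀ v, dist v c ≤ R - 1 → dist q v = 1 → (T v).ncard ≤ 3 ∨ ∃ B, Harm T v B ∧
      (∀ r, r ⊆ T v → r ≠ T v → ¬ ∀ᶠ w in 𝓝 v, Suf U r w) ∧ (T v \ B ⊆ T q → T v \ B = f q) := by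
    intro v hv hqv
    by_cases h3 : (T v).ncard ≤ 3
    · exact Or.inl h3
    · have hvZ : v ∈ Z := hZ.mem v (mem_closedBall.2 (by linarith)) (by omega)
      refine Or.inr ⟨f v, hl.harmU h (hZ.sub hvZ) (by omega), hmin v (by omega), ?_⟩
      exact hup v hvZ q hqZ (by rw [dist_comm]; exact hqv)
  have F'' : Fc T u sᶜᶜ := by rw [compl_compl]; exact F.fc
  have k1 : f q ⊆ s := F.fc.pair_sub h F'.fc hne F.1 hq hq' hne2 hqA hqn (key u hu hq)
  have k2 : f q ⊆ sᶜ := F'.fc.pair_sub h F'' hne.symm F'.1 hq' hq (by rwa [add_comm]) hqA hqn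
    (key u' hu' hq')
  obtain ⟨x, hx⟩ : (f q).Nonempty := by
    rw [← Set.ncard_pos (Set.toFinite _), hqA.cardA]; norm_num
  exact k2 hx (k1 hx)

end Vale.Agent.P032.Carr
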