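import Vale.Agent.P032.S5.H585.Pinch
import Vale.Agent.P032.S5.H287.HMTop
import Vale.Agent.P032.S5.H360.Match
import Vale.Agent.P032.S5.H678.Face

/-!
# P032: contacts at harmless points, and the distance-two rule with unit pairs

* `Harm.contact` : at a harmless point `x` with pair `B` in the minimal frame every pair `{p, r}`,
  `p ∈ B`, `r ∈ T x \ B`, is the palette of points `w → x`.
* `Irr.rh_arc'` : 678's rhombus lemma, the second point only carries a face.
* `Fc.pair_sub` : `s` a face at `u`, `sᶜ` a face at `u'`, `q` a harmless common point of the two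
  circles: the pair of `q` is contained in `s`.
-/

open Set Filter Topology Metric

noncomputable section

namespace Vale.Agent.P032.Six

variable {k : ℕ} {U : Fin k → Set ℂ} {T : ℂ → Set (Fin k)}

theorem ncard_two_eq {C : Set (Fin k)} (h2 : C.ncard = 2) {p r : Fin k} (hp : p ∈ C)
    (hr : r ∈ C) (hpr : p ≠ r) : C = {p, r} := by
  symm
  apply Set.eq_of_subset_of_ncard_le _ _ (Set.toFinite _)
  · rintro i (rfl | rfl) <;> assumption
  · rw [h2, Set.ncard_pair hpr]

theorem ncard_two_other {C : Set (Fin k)} (h2 : C.ncard = 2) {p : Fin k} (hp : p ∈ C) :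
    ∃ q, q ≠ p ∧ C = {p, q} := by
  obtain ⟨x, y, hxy, rfl⟩ := Set.ncard_eq_two.1 h2
  rcases hp with rfl | rfl
  · exact ⟨y, hxy.symm, rfl⟩
  · exact ⟨x, hxy, Set.pair_comm _ _⟩

/-- **Contacts.** -/
theorem Harm.contact (h : Irr U T) {x : ℂ} {B : Set (Fin k)} (hx : Harm T x B)
    (hmin : ∀ s, s ⊆ T x → s ≠ T x → ¬ ∀ᶠ w in 𝓝 x, Suf U s w) {p r : Fin k} (hp : p ∈ B)
    (hr : r ∈ T x) (hrB : r ∉ B) : ∃ᶠ w in 𝓝 x, T w = {p, r} := by
  intro hcon
  have c2 := hx.cardC
  have c3 := hx.cardA
  obtain ⟨q, hqp, hB2⟩ := ncard_two_other c3 hp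
  obtain ⟨s, hsr, hD2⟩ := ncard_two_other c2 (p := r) ⟨hr, hrB⟩
  have hsD : s ∈ T x \ B := by rw [hD2]; simp
  have hsp : s ≠ p := fun e => hsD.2 (e ▸ hp)
  have hpx : p ∈ T x := hx.sub hp
  have hT : ∀ i ∈ T x, i = p ∨ i = q ∨ i = r ∨ i = s := by
    intro i hi
    by_cases hiB : i ∈ B
    · rw [hB2] at hiB
      rcases hiB with h1 | h1
      · exact Or.inl h1
      · exact Or.inr (Or.inl h1)
    · have h2 : i ∈ T x \ B := ⟨hi, hiB⟩
      rw [hD2] at h2
      rcases h2 with h1 | h1
      · exact Or.inr (Or.inr (Or.inl h1))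
      · exact Or.inr (Or.inr (Or.inr h1))
  obtain ⟨g, hg, hJ⟩ := hx.arc
  have hgB : T g = B := hJ.self_of_nhdsWithin hg
  have hs : ∀ᶠ w in 𝓝 x, ∀ b ∈ T w, p ∈ T w → b = p ∨ s ∈ T w := by
    filter_upwards [h.nhd x, h.no_layer hg, hcon] with w h1 h2 h3 b hb hpw
    by_contra hno
    push Not at hno
    obtain ⟨hbp, hsw⟩ := hno
    have h4 : ¬ 4 ≤ (T w).ncard := by
      intro h4
      have h5 : T w = T x :=
        Set.eq_of_subset_of_ncard_le h1 (by rw [hx.card]; exact h4) (Set.toFinite _)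
      exact hsw (h5 ▸ hsD.1)
    have hqw : q ∉ T w := by
      intro hqw
      refine h4 (h2 ?_)
      rw [hgB, hB2]
      rintro i (rfl | rfl) <;> assumption
    have hbr : b = r := by
      rcases hT b (h1 hb) with h5 | h5 | h5 | h5
      · exact absurd h5 hbp
      · exact absurd (h5 ▸ hb) hqw
      · exact h5
      · exact absurd (h5 ▸ hb) hsw
    refine h3 (Subset.antisymm (fun i hi => ?_) ?_)
    · rcases hT i (h1 hi) with h5 | h5 | h5 | h5
      · exact Or.inl h5
      · exact absurd (h5 ▸ hi) hqw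
      · exact Or.inr h5
      · exact absurd (h5 ▸ hi) hsw
    · rintro i (rfl | rfl)
      · exact hpw
      · exact hbr ▸ hb
  have hJp : ∀ᶠ q' in 𝓝[sphere x 1] g, p ∈ Pal U q' :=
    hJ.mono fun q' hq' => h.sub q' (by rw [hq']; exact hp)
  refine hmin (T x \ {p}) sdiff_subset (fun h5 => ?_)
    (h.suf_of_single hsp.symm hsD.1 (h.sole (h.sub x hsD.1) hs hg hJp))
  have h6 : p ∈ T x \ {p} := by rw [h5]; exact hpx
  exact h6.2 rfl

/-- 678's rhombus lemma, with a face at the second point -/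
theorem Irr.rh_arc' (h : Irr U T) {u u' q : ℂ} {a b r : Fin k} (hu : T u = {a, b, r})
    (F' : Fc T u' (T u)ᶜ) (h3 : (T u).ncard ≤ 3)
    (hne : u ≠ u') (hq : dist q u = 1) (hq' : dist q u' = 1) (hne2 : u + u' ≠ 2 * q)
    (hr : r ∉ T q) : ∃ y, dist y q = 1 ∧ T y ⊆ {a, b} := by
  have F := h.fc_three h3
  have hmem : ∀ i, i ∈ T u ↔ i = a ∨ i = b ∨ i = r := by
    intro i
    rw [hu]
    simp
  have huq : dist u q = 1 := by rw [dist_comm]; exact hq
  by_contra hcon
  push Not at hcon
  -- `r` near `u` on `S(q)`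
  have e1 : ∀ᶠ y in 𝓝[sphere q 1] u, r ∈ T y := by
    filter_upwards [mem_nhdsWithin_of_mem_nhds (h.nhd u), self_mem_nhdsWithin] with y h1 h2
    by_contra hry
    refine hcon y h2 fun m hm => ?_
    rcases (hmem m).1 (h1 hm) with h4 | h4 | h4
    · exact Or.inl h4
    · exact Or.inr h4
    · exact absurd (h4 ▸ hm) hry
  -- `u ∈ XX`
  obtain ⟨⟨i0, hi0q, hi0⟩, -⟩ : (∃ i ∈ T q, i ∈ T u) ∧ True := by
    refine ⟨?_, trivial⟩
    by_contra hc
    push Not at hc
    exact F'.full q hq' fun m hm => hc m hm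
  have huX : u ∈ XX U := h.mem_XX huq hi0 (h.sub q hi0q)
  obtain ⟨y0, hy0, hry0⟩ := h.partner_XX huX r
  have hl := fun (v : ℂ) (hv : dist u v = 1) (hv' : r ∈ Pal U v) =>
    h.mx.partner_line huq (e1.mono fun y hy => h.sub y hy) hv hv'
  -- the second common point
  obtain ⟨w, hw⟩ : ∃ w, w = u + u' - q := ⟨_, rfl⟩
  have hwu : dist w u = 1 := by
    rw [hw, dist_eq_norm]
    rw [show u + u' - q - u = -(q - u') by ring, norm_neg, ← dist_eq_norm]
    exact hq'
  have hwu' : dist w u' = 1 := by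
    rw [hw, dist_eq_norm]
    rw [show u + u' - q - u' = -(q - u) by ring, norm_neg, ← dist_eq_norm]
    exact hq
  have huw : dist u w = 1 := by rw [dist_comm]; exact hwu
  have hwq : w ≠ q := fun e => hne2 (by rw [hw] at e; linear_combination e)
  have hwq2 : w + q ≠ 2 * u := fun e => hne (by rw [hw] at e; linear_combination -e)
  have hne2' : u + u' ≠ 2 * w := fun e => hwq (by rw [hw] at e ⊢; linear_combination -e)
  have hrw : r ∉ T w := by
    intro hrw
    rcases hl w huw (h.sub w hrw) with h1 | h1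
    · exact hwq h1
    · exact hwq2 h1
  -- two colours of `u` at `w`
  have hawb : a ∈ T w ∧ b ∈ T w := by
    have key : ∀ x y : Fin k, (∀ i, i ∈ T u ↔ i = x ∨ i = y ∨ i = r) → y ∈ T w := by
      intro x y hxy
      obtain ⟨t, ht, htu, htx⟩ := Fc.five h F.sub F' (fun i => em _) hne hwu hwu' hne2' x
      rcases (hxy t).1 htu with h4 | h4 | h4
      · exact absurd h4 htx
      · exact h4 ▸ ht
      · exact absurd (h4 ▸ ht) hrw
    exact ⟨key b a fun i => (hmem i).trans (by tauto), key a b hmem⟩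
  -- `r` near `u` on `S(w)`
  have e2 : ∀ᶠ y in 𝓝[sphere w 1] u, r ∈ T y := by
    have c1 : Tendsto (fun y : ℂ => y + q - u) (𝓝 u) (𝓝 q) := by
      have : Continuous fun y : ℂ => y + q - u := by fun_prop
      have h2 := this.tendsto u
      simpa using h2
    have c2 : ∀ᶠ y in 𝓝 u, T (y + q - u) ⊆ T q := c1.eventually (h.nhd q)
    have c3 : ∀ᶠ y in 𝓝 u, y + q - u ≠ w := c1.eventually (isOpen_ne.mem_nhds hwq.symm)
    have c4 : ∀ᶠ y in 𝓝 u, y ≠ u' := isOpen_ne.mem_nhds hne
    have c5 := c2.and (c3.and (c4.and (h.nhd u)))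
    obtain ⟨V, hV, hVo, huV⟩ := _root_.mem_nhds_iff.1 c5
    filter_upwards [mem_nhdsWithin_of_mem_nhds (hVo.mem_nhds huV),
      mem_nhdsWithin_of_mem_nhds (h.nhd u), self_mem_nhdsWithin] with y hyV hyu hyw
    by_contra hry
    obtain ⟨y1, ⟨⟨hy1V, hy1T⟩, hy1w⟩, hconst⟩ := h.const (S := sphere w 1) (y := y) hyw
      (inter_mem (hVo.mem_nhds hyV) (h.nhd y))
    have hy1T : T y1 ⊆ T y := hy1T
    have hy1w : dist y1 w = 1 := hy1w
    obtain ⟨d2, d3, d4, d5⟩ := hV hy1V
    have hy1r : r ∉ T y1 := fun hh => hry (hy1T hh)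
    have hsub1 : ∀ m ∈ T y1, m = a ∨ m = b := by
      intro m hm
      rcases (hmem m).1 (d5 hm) with h4 | h4 | h4
      · exact Or.inl h4
      · exact Or.inr h4
      · exact absurd (h4 ▸ hm) hy1r
    have hboth : ∀ x y : Fin k, x ∈ T w → (∀ m ∈ T y1, m = x ∨ m = y) → y ∈ T y1 := by
      intro x y2 hx hxy
      by_contra hcon2
      have h4 : T y1 ⊆ {x} := fun m hm => (hxy m hm).resolve_right fun e => hcon2 (e ▸ hm)
      exact h.mx.notMem' (h.mem_of_single h4) hy1w (h.sub w hx)
    have hb1 : b ∈ T y1 := hboth a b hawb.1 hsub1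
    have ha1 : a ∈ T y1 := hboth b a hawb.2 fun m hm => (hsub1 m hm).symm
    have hq1 : dist y1 (y1 + q - u) = 1 := by
      rw [dist_eq_norm, show y1 - (y1 + q - u) = -(q - u) by ring, norm_neg, ← dist_eq_norm]
      exact hq
    have hq2 : dist (y1 + q - u) u' = 1 := by
      rw [dist_eq_norm, show y1 + q - u - u' = y1 - w by rw [hw]; ring, ← dist_eq_norm]
      exact hy1w
    have hno : ∀ m ∈ T y1, m ∉ Pal U (y1 + q - u) := by
      intro m hm hm'
      rcases h.mx.partner_line (u := w) (p := y1) (t := m) hy1w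
        (hconst.mono fun z hz => h.sub z (by rw [hz]; exact hm)) hq1 hm' with h4 | h4
      · exact d3 h4
      · refine d4 ?_
        rw [hw] at h4
        linear_combination -h4
    refine F'.full _ hq2 fun m hm => ?_
    have hmq := d2 hm
    show m ∉ T u
    intro hmu
    rcases (hmem m).1 hmu with h4 | h4 | h4
    · exact hno m (h4 ▸ ha1) (h.sub _ hm)
    · exact hno m (h4 ▸ hb1) (h.sub _ hm)
    · exact hr (h4 ▸ hmq)
  have hl2 := h.mx.partner_line huw (e2.mono fun y hy => h.sub y hy) hy0 hry0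
  have hl1 := hl y0 hy0 hry0
  rcases hl1 with h1 | h1 <;> rcases hl2 with h2 | h2
  · exact hwq (h2.symm.trans h1)
  · rw [h1] at h2
    exact hwq2 (by linear_combination h2)
  · rw [h2] at h1
    exact hwq2 h1
  · exact hwq (by linear_combination h2 - h1)

/-- unit circles which cross: near the crossing point `q` there is a common point of the circles
about `u'` and about `w` near `u` -/
theorem exists_cross {u u' q : ℂ} (hne : u ≠ u') (hq : dist q u = 1) (hq' : dist q u' = 1)
    (hne2 : u + u' ≠ 2 * q) {N : Set ℂ} (hN : N ∈ 𝓝 q) :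
    ∀ᶠ w in 𝓝 u, ∃ y ∈ N, dist y u' = 1 ∧ dist y w = 1 := by
  obtain ⟨θ, hθ⟩ := exists_cis (u := q - u') (by rw [← dist_eq_norm]; exact hq')
  have hqθ : u' + cis θ = q := by rw [← hθ]; ring
  have hc : ContinuousAt (fun t => u' + cis t) θ :=
    (continuous_const.add continuous_cis).continuousAt
  have hpre : (fun t => u' + cis t) ⁻¹' N ∈ 𝓝 θ := hc.preimage_mem_nhds (by rw [hqθ]; exact hN)
  obtain ⟨η, hη, hball⟩ := Metric.mem_nhds_iff.1 hpre
  have hcr : cr (cis θ) (u' + cis θ - u) ≠ 0 := by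
    rw [hqθ, ← hθ]
    exact cr_ne hq' hq hne.symm (by rw [add_comm]; exact hne2)
  have hcross := crossing (c := u') (q₀ := u) (t0 := θ) (by rw [hqθ]; exact hq) hcr hη
  filter_upwards [hcross] with w hw
  obtain ⟨t, ht, htw⟩ := hw
  exact ⟨u' + cis t, hball (by rw [mem_ball, Real.dist_eq]; exact ht), dist_add_cis u' t, htw⟩

/-- **The pair of a harmless point on the circles about two complementary faces**: it is contained
in the face of `u`, if `u` has at most three colours, or `u` is a harmless point of the minimal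
frame such that `{u, q}` is not a `D`-star. -/
theorem Fc.pair_sub (h : Irr U T) {u u' q : ℂ} {s A : Set (Fin k)} (F : Fc T u s)
    (F' : Fc T u' sᶜ) (hne : u ≠ u') (hs : s.ncard = 3) (hq : dist q u = 1)
    (hq' : dist q u' = 1) (hne2 : u + u' ≠ 2 * q) (hqA : Harm T q A)
    (hqn : ∀ᶠ y in 𝓝 q, 4 ≤ (T y).ncard → ∃ A', Harm T y A')
    (hu : (T u).ncard ≤ 3 ∨ ∃ B, Harm T u B ∧
      (∀ r, r ⊆ T u → r ≠ T u → ¬ ∀ᶠ w in 𝓝 u, Suf U r w) ∧
      (T u \ B ⊆ T q → T u \ B = A)) : A ⊆ s := by
  obtain ⟨c1, c2⟩ := F.four_le h F' hne hq hq' hne2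
  have h5 := Set.ncard_inter_add_ncard_sdiff_eq_ncard (T q) s (Set.toFinite _)
  rw [Set.sdiff_eq, hqA.card] at h5
  have hc : (T q ∩ s).ncard = 2 := by omega
  rcases hu with h3 | ⟨B, hB, hmin, hup⟩
  · -- a real base
    have hTu : T u = s := F.eq_of_three hs h3
    obtain ⟨a, b, hab, hab2⟩ := Set.ncard_eq_two.1 hc
    have hasub : ({a, b} : Set (Fin k)) ⊆ s := by rw [← hab2]; exact inter_subset_right
    have hasubq : ({a, b} : Set (Fin k)) ⊆ T q := by rw [← hab2]; exact inter_subset_left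
    have hd1 : (s \ {a, b}).ncard = 1 := by
      rw [Set.ncard_sdiff hasub (Set.toFinite _), hs, Set.ncard_pair hab]
    obtain ⟨m, hm⟩ := Set.ncard_eq_one.1 hd1
    have hmr : m ∈ s \ {a, b} := by rw [hm]; rfl
    have hr3 : s = {a, b, m} := by
      ext i
      simp only [mem_insert_iff, mem_singleton_iff]
      constructor
      · intro hi
        by_cases hi2 : i ∈ ({a, b} : Set (Fin k))
        · rcases hi2 with h6 | h6
          · exact Or.inl h6
          · exact Or.inr (Or.inl h6)
        · have : i ∈ s \ {a, b} := ⟨hi, hi2⟩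
          rw [hm] at this
          exact Or.inr (Or.inr this)
      · rintro (rfl | rfl | rfl)
        · exact hasub (by simp)
        · exact hasub (by simp)
        · exact hmr.1
    obtain ⟨y, hy, hyT⟩ := h.rh_arc' (u := u) (u' := u') (q := q) (a := a) (b := b) (r := m)
      (by rw [hTu]; exact hr3) (by rw [hTu]; exact F') h3 hne hq hq' hne2
      (fun hmq => hmr.2 (by rw [← hab2]; exact ⟨hmq, hmr.1⟩))
    exact (hqA.h1 y hy (hyT.trans hasubq)).trans (hyT.trans hasub)
  · -- a virtual base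
    obtain ⟨g, hg, hJ⟩ := hB.arc
    have hgB : T g = B := hJ.self_of_nhdsWithin hg
    obtain ⟨x, hxB, hxs⟩ : ∃ x ∈ B, x ∉ s := by
      have := F.full g hg
      rw [hgB] at this
      exact Set.not_subset.1 this
    have hTu : T u = insert x s := by
      symm
      refine Set.eq_of_subset_of_ncard_le (insert_subset (hB.sub hxB) F.sub) ?_ (Set.toFinite _)
      rw [hB.card, Set.ncard_insert_of_notMem hxs (Set.toFinite _), hs]
    have hCs : T u \ B ⊆ s := by
      rintro i ⟨hi, hiB⟩
      rw [hTu] at hi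
      rcases hi with rfl | hi
      · exact absurd hxB hiB
      · exact hi
    by_cases hsub : T u \ B ⊆ T q
    · rw [← hup hsub]
      exact hCs
    · obtain ⟨m, hmC, hmq⟩ := Set.not_subset.1 hsub
      obtain ⟨b, hbm, hC2⟩ := ncard_two_other hB.cardC hmC
      obtain ⟨a, hax, hB2⟩ := ncard_two_other hB.cardA hxB
      have haB : a ∈ B := by rw [hB2]; simp
      have hbC : b ∈ T u \ B := by rw [hC2]; simp
      have has : a ∈ s := by
        have := hB.sub haB
        rw [hTu] at this
        exact this.resolve_left hax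
      have hbs : b ∈ s := hCs hbC
      have hms : m ∈ s := hCs hmC
      have hab : a ≠ b := fun e => hbC.2 (e ▸ haB)
      have ham : a ≠ m := fun e => hmC.2 (e ▸ haB)
      -- the two common colours
      have hqs : ∀ i ∈ T q, i ∈ s → i = a ∨ i = b := by
        intro i hi his
        have h6 : i ∈ T u := F.sub his
        by_cases hiB : i ∈ B
        · rw [hB2] at hiB
          rcases hiB with h7 | h7
          · exact absurd (h7 ▸ his) hxs
          · exact Or.inl h7
        · have h7 : i ∈ T u \ B := ⟨h6, hiB⟩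
          rw [hC2] at h7
          rcases h7 with h8 | h8
          · exact absurd (h8 ▸ hi) hmq
          · exact Or.inr h8
      have hfr := hB.contact h hmin haB hbC.1 hbC.2
      -- neighbourhoods
      have hopen : {p : ℂ × ℂ | p.1 ≠ u' ∧ p.1 + u' ≠ 2 * p.2} ∈ 𝓝 u ×ˢ 𝓝 q := by
        rw [← nhds_prod_eq]
        refine IsOpen.mem_nhds ?_ ⟨hne, hne2⟩
        exact (isOpen_ne_fun continuous_fst continuous_const).inter
          (isOpen_ne_fun (continuous_fst.add continuous_const)
            (continuous_const.mul continuous_snd))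
      obtain ⟨V, hV, W, hW, hVW⟩ := Filter.mem_prod_iff.1 hopen
      have hNq : {y | T y ⊆ T q ∧ (4 ≤ (T y).ncard → ∃ A', Harm T y A') ∧
          (∀ A', Harm T y A' → T y = T q ∧ A' = A)} ∩ W ∈ 𝓝 q :=
        inter_mem ((h.nhd q).and (hqn.and (hqA.nhd h))) hW
      obtain ⟨w, hTw, ⟨y, ⟨⟨hy1, hy2, hy3⟩, hyW⟩, hyu', hyw⟩, hwV⟩ :=
        (hfr.and_eventually ((exists_cross hne hq hq' hne2 hNq).and hV)).exists
      obtain ⟨hwu', hwy2⟩ := hVW (Set.mk_mem_prod hwV hyW)
      simp only at hwu' hwy2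
      have haw : a ∈ Pal U w := h.sub w (by rw [hTw]; simp)
      have hbw : b ∈ Pal U w := h.sub w (by rw [hTw]; simp)
      have hay : a ∈ T y := by
        by_contra hcon
        have ht : T y ⊆ insert b sᶜ := by
          intro i hi
          by_cases his : i ∈ s
          · rcases hqs i (hy1 hi) his with h7 | h7
            · exact absurd (h7 ▸ hi) hcon
            · exact Or.inl h7
          · exact Or.inr his
        rcases F'.lemmaX h hyu' ht hyw hbw with h7 | h7
        · exact hwu' h7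
        · exact hwy2 h7
      have hby : b ∈ T y := by
        by_contra hcon
        have ht : T y ⊆ insert a sᶜ := by
          intro i hi
          by_cases his : i ∈ s
          · rcases hqs i (hy1 hi) his with h7 | h7
            · exact Or.inl h7
            · exact absurd (h7 ▸ hi) hcon
          · exact Or.inr his
        rcases F'.lemmaX h hyu' ht hyw haw with h7 | h7
        · exact hwu' h7
        · exact hwy2 h7
      have hTwy : T w ⊆ T y := by
        rw [hTw]
        rintro i (rfl | rfl) <;> assumption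
      have hwy : dist w y = 1 := by rw [dist_comm]; exact hyw
      have h4y : 4 ≤ (T y).ncard := by
        by_contra hcon
        exact h.not_sub hwy (by omega) hTwy
      obtain ⟨A', hA'⟩ := hy2 h4y
      obtain ⟨-, hAA⟩ := hy3 A' hA'
      rw [← hAA]
      refine (hA'.h1 w hwy hTwy).trans ?_
      rw [hTw]
      rintro i (rfl | rfl) <;> assumption

end Vale.Agent.P032.Six
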